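import Mathlib
import Vale.Agent.Lib.P100.Defs
import Vale.Agent.Lib.P100.LowWeights

namespace Vale.Agent.Results.P100.B_below_critical

open Vale.Agent.Lib.P100

/-- Nonexistence, without radial symmetry or any growth or boundedness hypothesis, for every `n ≥ 2`
and all real weights `A, B`, when both exponents are at most the weighted critical exponents:
`(n - 2) p ≤ n + 2 + 2 A` and `(n - 2) q ≤ n + 2 + 2 B`, not both with equality. This is the part of
the subcritical region where `(n + A) / (p + 1) ≥ (n - 2) / 2` and `(n + B) / (q + 1) ≥ (n - 2) / 2`;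
it contains the scalar Hénon-Lane-Emden conjecture (take `u = v`, `p = q`, `A = B`). -/
theorem result (n : ℕ) (hn : 2 ≤ n) (p q A B : ℝ) (hp : 0 < p) (hq : 0 < q)
    (h1 : ((n:ℝ) - 2) * p ≤ n + 2 + 2 * A) (h2 : ((n:ℝ) - 2) * q ≤ n + 2 + 2 * B)
    (hs : ((n:ℝ) - 2) * p < n + 2 + 2 * A ∨ ((n:ℝ) - 2) * q < n + 2 + 2 * B)
    (u v : EuclideanSpace ℝ (Fin n) → ℝ) : ¬ IsPositiveEntireSolution n p q A B u v :=
  fun h => no_solution_main hn hp hq h1 h2 hs h

end Vale.Agent.Results.P100.B_below_critical
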