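import Mathlib
import Vale.Agent.Lib.P100.Defs
import Vale.Agent.Lib.P100.Final

namespace Vale.Agent.Results.P100.C_necessary

open Vale.Agent.Lib.P100

/-- Necessary conditions for a positive entire solution of the Hénon-Lane-Emden system, for all
`n ≥ 2`, `p, q > 0` and all real `A, B`, with no symmetry, growth, boundedness or stability
hypothesis. With `α = (2 + A + p (2 + B)) / (p q - 1)` and `β = (2 + B + q (2 + A)) / (p q - 1)`, a
solution can exist only if `n ≥ 3`, `A, B > -2`, `p q > 1`, `max(α, β) < n - 2` and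
`min(α, β) ≤ (n - 2) / 2`. So there is no solution when `p q > 1`, `A, B > -2` and
`α, β > (n - 2) / 2`, which is a part of the subcritical region `α + β > n - 2`. -/
theorem result (n : ℕ) (hn : 2 ≤ n) (p q A B : ℝ) (hp : 0 < p) (hq : 0 < q)
    (u v : EuclideanSpace ℝ (Fin n) → ℝ) (h : IsPositiveEntireSolution n p q A B u v) :
    3 ≤ n ∧ -2 < A ∧ -2 < B ∧ 1 < p * q ∧
      (2 + A + p * (2 + B)) / (p * q - 1) < (n:ℝ) - 2 ∧
      (2 + B + q * (2 + A)) / (p * q - 1) < (n:ℝ) - 2 ∧
      ((2 + A + p * (2 + B)) / (p * q - 1) ≤ ((n:ℝ) - 2) / 2 ∨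
        (2 + B + q * (2 + A)) / (p * q - 1) ≤ ((n:ℝ) - 2) / 2) :=
  necessary_conditions hn hp hq h

end Vale.Agent.Results.P100.C_necessary
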