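import Vale.Agent.Results.P100.A_radial
import Vale.Agent.Results.P100.B_below_critical
import Vale.Agent.Results.P100.C_necessary

namespace Vale.Agent.Results.P100.A0_master

open Vale.Agent.Lib.P100

/-- For all `n ≥ 2`, `p, q > 0` and real `A, B`:
(1) with `α = (2 + A + p (2 + B)) / (p q - 1)`, `β = (2 + B + q (2 + A)) / (p q - 1)`, a positive entire solution
can exist only if `n ≥ 3`, `A, B > -2`, `p q > 1`, `α, β < n - 2` and `min(α, β) ≤ (n - 2) / 2`;
(2) a radial positive entire solution can exist only if `A, B > -2` and the parameters are not subcritical;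
(3) there is no positive entire solution when `(n - 2) p ≤ n + 2 + 2 A`, `(n - 2) q ≤ n + 2 + 2 B`, not both equalities. -/
theorem result (n : ℕ) (hn : 2 ≤ n) (p q A B : ℝ) (hp : 0 < p) (hq : 0 < q)
    (u v : EuclideanSpace ℝ (Fin n) → ℝ) :
    (IsPositiveEntireSolution n p q A B u v →
      3 ≤ n ∧ -2 < A ∧ -2 < B ∧ 1 < p * q ∧
      (2 + A + p * (2 + B)) / (p * q - 1) < (n:ℝ) - 2 ∧
      (2 + B + q * (2 + A)) / (p * q - 1) < (n:ℝ) - 2 ∧
      ((2 + A + p * (2 + B)) / (p * q - 1) ≤ ((n:ℝ) - 2) / 2 ∨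
        (2 + B + q * (2 + A)) / (p * q - 1) ≤ ((n:ℝ) - 2) / 2)) ∧
    ((∀ x y : EuclideanSpace ℝ (Fin n), ‖x‖ = ‖y‖ → u x = u y) →
      (∀ x y : EuclideanSpace ℝ (Fin n), ‖x‖ = ‖y‖ → v x = v y) →
      IsPositiveEntireSolution n p q A B u v →
      -2 < A ∧ -2 < B ∧ ((n:ℝ) + A) / (p + 1) + ((n:ℝ) + B) / (q + 1) ≤ (n:ℝ) - 2) ∧
    (((n:ℝ) - 2) * p ≤ n + 2 + 2 * A → ((n:ℝ) - 2) * q ≤ n + 2 + 2 * B →
      (((n:ℝ) - 2) * p < n + 2 + 2 * A ∨ ((n:ℝ) - 2) * q < n + 2 + 2 * B) →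
      ¬ IsPositiveEntireSolution n p q A B u v) :=
  ⟨fun h => Vale.Agent.Results.P100.C_necessary.result n hn p q A B hp hq u v h,
    fun hu hv h => Vale.Agent.Results.P100.A_radial.result n hn p q A B hp hq u v hu hv h,
    fun h1 h2 hs => Vale.Agent.Results.P100.B_below_critical.result n hn p q A B hp hq h1 h2 hs u v⟩

end Vale.Agent.Results.P100.A0_master
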