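import Mathlib
import Vale.Agent.Lib.P100.Defs
import Vale.Agent.Lib.P100.Reduction

namespace Vale.Agent.Results.P100.A_radial

open Vale.Agent.Lib.P100

/-- Radial case of the Hénon-Lane-Emden conjecture, for all real weights: if the system has a radial
positive entire solution on `ℝⁿ`, `n ≥ 2`, then `A, B > -2` and the parameters are not subcritical.
In particular, for subcritical parameters there is no radial positive entire solution. -/
theorem result (n : ℕ) (hn : 2 ≤ n) (p q A B : ℝ) (hp : 0 < p) (hq : 0 < q)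
    (u v : EuclideanSpace ℝ (Fin n) → ℝ)
    (hu : ∀ x y : EuclideanSpace ℝ (Fin n), ‖x‖ = ‖y‖ → u x = u y)
    (hv : ∀ x y : EuclideanSpace ℝ (Fin n), ‖x‖ = ‖y‖ → v x = v y)
    (h : IsPositiveEntireSolution n p q A B u v) :
    -2 < A ∧ -2 < B ∧ ((n:ℝ) + A) / (p + 1) + ((n:ℝ) + B) / (q + 1) ≤ (n:ℝ) - 2 :=
  radial_necessary hn hp hq h hu hv

end Vale.Agent.Results.P100.A_radial
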